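import Vale.Agent.Lib.P100.S5.D0
import Vale.Agent.Lib.P100.S5.D1
import Vale.Agent.Lib.P100.S5.D2
import Vale.Agent.Lib.P100.S5.D3
import Vale.Agent.Lib.P100.S5.D4
import Vale.Agent.Lib.P100.S5.D5
import Vale.Agent.Lib.P100.S5.D6
import Vale.Agent.Lib.P100.S5.D7

/-!
# P100: the staircase for `n = 5`, `e = 1/200`

Generated data (modules `D*`): rectangles in the `(p, q)`-plane with rational certificates.
-/

noncomputable section

namespace Vale.Agent.Lib.P100

namespace Check

namespace S5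

/-- All the cells. -/
def cellsAll : List Cell := chunk0 ++ chunk1 ++ chunk2 ++ chunk3 ++ chunk4 ++ chunk5 ++ chunk6 ++ chunk7

/-- All the cells but the first. -/
def cellsTail : List Cell := chunk0.tail ++ chunk1 ++ chunk2 ++ chunk3 ++ chunk4 ++ chunk5 ++ chunk6 ++ chunk7

theorem cellsAll_eq : cellsAll = c0 :: cellsTail := rfl

theorem all_ok : cellsAll.all (cellOKB 5 (3/2)) = true := by
  simp only [cellsAll, List.all_append, chunk0_ok, chunk1_ok, chunk2_ok, chunk3_ok, chunk4_ok, chunk5_ok, chunk6_ok, chunk7_ok, Bool.and_true]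

theorem chain_ok : chainB ((2 : ℚ) + 1 + (1/200)) (c0 :: cellsTail) = true := by decide +kernel

theorem diag_ok : outsideB ((2 : ℚ) + 1 + (1/200)) c0.q1 c0.q1 = true := by decide +kernel

theorem last_ok : (2 : ℚ) + 2 ≤ (1 + (1/200)) * ((c0 :: cellsTail).getLast (List.cons_ne_nil _ _)).p1 := by
  decide +kernel

/-- **The staircase for `n = 5`.** -/
theorem exists_cell {p q : ℝ} (h : Tri 2 (1/200) p q) :
    ∃ (a b : ℝ) (c : Fin 14 → ℝ) (c0 : ℝ), CellOK 5 a b c c0 p q := by
  have h' : Tri (((2 : ℚ)) : ℝ) (((1/200 : ℚ)) : ℝ) p q := by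
    have e1 : (((2 : ℚ)) : ℝ) = 2 := by norm_num
    have e2 : (((1/200 : ℚ)) : ℝ) = 1/200 := by norm_num
    rw [e1, e2]; exact h
  have hall : (c0 :: cellsTail).all (cellOKB 5 (3/2)) = true := by
    rw [← cellsAll_eq]; exact all_ok
  have hs := stair_sound (n := 5) (l := 3/2) (m := 2) (e := 1/200) (by norm_num) (by norm_num) (by norm_num)
    c0 cellsTail hall chain_ok diag_ok last_ok h'
  have e3 : (((5 : ℚ)) : ℝ) = 5 := by norm_num
  rw [e3] at hs
  exact hs

end S5

end Check

end Vale.Agent.Lib.P100
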